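import Mathlib

/-!
# P124: a Lipschitz isomorphism with one point of Frechet differentiability

If a Lipschitz isomorphism `f : X → Y` of real Banach spaces is Frechet differentiable at one point,
then its derivative at that point is a linear isomorphism of `X` onto `Y`, with the same constants.
-/

namespace Vale.Agent.Results.P124.DifferentiabilityPoint

variable {X Y : Type*} [NormedAddCommGroup X] [NormedSpace ℝ X]
  [NormedAddCommGroup Y] [NormedSpace ℝ Y]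

theorem eps_delta {f : X → Y} {x0 : X} {T : X →L[ℝ] Y} (hT : HasFDerivAt f T x0) {ε : ℝ}
    (hε : 0 < ε) : ∃ δ : ℝ, 0 < δ ∧ ∀ x, ‖x - x0‖ < δ →
      ‖f x - f x0 - T (x - x0)‖ ≤ ε * ‖x - x0‖ := by
  have h1 := hT.isLittleO.def hε
  obtain ⟨δ, hδ, h2⟩ := Metric.eventually_nhds_iff.1 h1
  exact ⟨δ, hδ, fun x hx => h2 (by rwa [dist_eq_norm])⟩

theorem lower_bound {f : X → Y} {c : ℝ} (hlow : ∀ x x', c * ‖x - x'‖ ≤ ‖f x - f x'‖)
    {x0 : X} {T : X →L[ℝ] Y} (hT : HasFDerivAt f T x0) (h : X) : c * ‖h‖ ≤ ‖T h‖ := by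
  by_cases hh : h = 0
  · simp [hh]
  have hn : 0 < ‖h‖ := norm_pos_iff.2 hh
  apply le_of_forall_pos_le_add
  intro η hη
  obtain ⟨δ, hδ, hE⟩ := eps_delta hT (ε := η / ‖h‖) (by positivity)
  set t : ℝ := δ / (2 * ‖h‖) with ht
  have htpos : 0 < t := by positivity
  have hx : (x0 + t • h) - x0 = t • h := by abel
  have hnorm : ‖t • h‖ = t * ‖h‖ := by rw [norm_smul, Real.norm_of_nonneg htpos.le]
  have hlt : ‖(x0 + t • h) - x0‖ < δ := by
    rw [hx, hnorm, ht]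
    have : δ / (2 * ‖h‖) * ‖h‖ = δ / 2 := by field_simp
    rw [this]; linarith
  have h1 := hE _ hlt
  have h2 := hlow (x0 + t • h) x0
  rw [hx] at h1 h2
  rw [hnorm] at h1 h2
  rw [map_smul] at h1
  have h3 : ‖f (x0 + t • h) - f x0‖ ≤ ‖f (x0 + t • h) - f x0 - t • T h‖ + ‖t • T h‖ := by
    have := norm_add_le (f (x0 + t • h) - f x0 - t • T h) (t • T h)
    simpa using this
  have h4 : ‖t • T h‖ = t * ‖T h‖ := by rw [norm_smul, Real.norm_of_nonneg htpos.le]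
  rw [h4] at h3
  have h5 : η / ‖h‖ * (t * ‖h‖) = t * η := by field_simp
  rw [h5] at h1
  have h6 : t * (c * ‖h‖) ≤ t * (‖T h‖ + η) := by nlinarith
  exact le_of_mul_le_mul_left h6 htpos

theorem mem_closure_range {f : X → Y} (hsurj : Function.Surjective f) {c : ℝ} (hc : 0 < c)
    (hlow : ∀ x x', c * ‖x - x'‖ ≤ ‖f x - f x'‖)
    {x0 : X} {T : X →L[ℝ] Y} (hT : HasFDerivAt f T x0) (k : Y) :
    k ∈ closure (Set.range T) := by
  rw [Metric.mem_closure_iff]
  intro η hη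
  by_cases hk : k = 0
  · exact ⟨0, ⟨0, map_zero T⟩, by simpa [hk] using hη⟩
  have hn : 0 < ‖k‖ := norm_pos_iff.2 hk
  obtain ⟨δ, hδ, hE⟩ := eps_delta hT (ε := η * c / (2 * ‖k‖)) (by positivity)
  set t : ℝ := δ * c / (2 * ‖k‖) with ht
  have htpos : 0 < t := by positivity
  obtain ⟨x, hx⟩ := hsurj (f x0 + t • k)
  have hfx : f x - f x0 = t • k := by rw [hx]; abel
  have hnorm : ‖t • k‖ = t * ‖k‖ := by rw [norm_smul, Real.norm_of_nonneg htpos.le]
  have h1 := hlow x x0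
  rw [hfx, hnorm] at h1
  have h2 : ‖x - x0‖ ≤ t * ‖k‖ / c := by rw [le_div_iff₀ hc]; linarith
  have h3 : t * ‖k‖ / c = δ / 2 := by rw [ht]; field_simp
  have hlt : ‖x - x0‖ < δ := by rw [h3] at h2; linarith
  have h4 := hE x hlt
  rw [hfx] at h4
  refine ⟨T (t⁻¹ • (x - x0)), ⟨_, rfl⟩, ?_⟩
  rw [dist_eq_norm, map_smul]
  have h5 : k - t⁻¹ • T (x - x0) = t⁻¹ • (t • k - T (x - x0)) := by
    rw [smul_sub, smul_smul, inv_mul_cancel₀ htpos.ne', one_smul]
  rw [h5, norm_smul, norm_inv, Real.norm_of_nonneg htpos.le]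
  have h6 : ‖t • k - T (x - x0)‖ ≤ η * c / (2 * ‖k‖) * (t * ‖k‖ / c) :=
    h4.trans (mul_le_mul_of_nonneg_left h2 (by positivity))
  have h7 : η * c / (2 * ‖k‖) * (t * ‖k‖ / c) = t * (η / 2) := by field_simp
  rw [h7] at h6
  calc t⁻¹ * ‖t • k - T (x - x0)‖ ≤ t⁻¹ * (t * (η / 2)) :=
        mul_le_mul_of_nonneg_left h6 (by positivity)
    _ = η / 2 := by field_simp
    _ < η := by linarith

theorem upper_bound {f : X → Y} {C : ℝ} (hup : ∀ x x', ‖f x - f x'‖ ≤ C * ‖x - x'‖)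
    {x0 : X} {T : X →L[ℝ] Y} (hT : HasFDerivAt f T x0) (h : X) : ‖T h‖ ≤ C * ‖h‖ := by
  by_cases hh : h = 0
  · simp [hh]
  have hn : 0 < ‖h‖ := norm_pos_iff.2 hh
  apply le_of_forall_pos_le_add
  intro η hη
  obtain ⟨δ, hδ, hE⟩ := eps_delta hT (ε := η / ‖h‖) (by positivity)
  set t : ℝ := δ / (2 * ‖h‖) with ht
  have htpos : 0 < t := by positivity
  have hx : (x0 + t • h) - x0 = t • h := by abel
  have hnorm : ‖t • h‖ = t * ‖h‖ := by rw [norm_smul, Real.norm_of_nonneg htpos.le]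
  have hlt : ‖(x0 + t • h) - x0‖ < δ := by
    rw [hx, hnorm, ht]
    have : δ / (2 * ‖h‖) * ‖h‖ = δ / 2 := by field_simp
    rw [this]; linarith
  have h1 := hE _ hlt
  have h2 := hup (x0 + t • h) x0
  rw [hx] at h1 h2
  rw [hnorm] at h1 h2
  rw [map_smul] at h1
  have h3 : ‖t • T h‖ ≤ ‖f (x0 + t • h) - f x0 - t • T h‖ + ‖f (x0 + t • h) - f x0‖ := by
    have := norm_sub_le (f (x0 + t • h) - f x0) (f (x0 + t • h) - f x0 - t • T h)
    have h8 : f (x0 + t • h) - f x0 - (f (x0 + t • h) - f x0 - t • T h) = t • T h := by abel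
    rw [h8] at this
    linarith
  have h4 : ‖t • T h‖ = t * ‖T h‖ := by rw [norm_smul, Real.norm_of_nonneg htpos.le]
  rw [h4] at h3
  have h5 : η / ‖h‖ * (t * ‖h‖) = t * η := by field_simp
  rw [h5] at h1
  have h6 : t * ‖T h‖ ≤ t * (C * ‖h‖ + η) := by nlinarith
  exact le_of_mul_le_mul_left h6 htpos

theorem frechet_case [CompleteSpace X] (f : X → Y) (hbij : Function.Bijective f) (c C : ℝ) (hc : 0 < c)
    (hlow : ∀ x x', c * ‖x - x'‖ ≤ ‖f x - f x'‖) (hup : ∀ x x', ‖f x - f x'‖ ≤ C * ‖x - x'‖)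
    (x0 : X) (T : X →L[ℝ] Y) (hT : HasFDerivAt f T x0) :
    ∃ e : X ≃L[ℝ] Y, (∀ h, e h = T h) ∧ ∀ h, c * ‖h‖ ≤ ‖e h‖ ∧ ‖e h‖ ≤ C * ‖h‖ := by
  have hlo := lower_bound hlow hT
  have hupT := upper_bound hup hT
  have hinj : Function.Injective T := by
    rw [injective_iff_map_eq_zero]
    intro h hh
    have := hlo h
    rw [hh, norm_zero] at this
    have h2 : ‖h‖ ≤ 0 := by
      by_contra hcon
      push Not at hcon
      nlinarith
    exact norm_le_zero_iff.1 h2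
  have hanti : AntilipschitzWith (Real.toNNReal c⁻¹) T := by
    apply ContinuousLinearMap.antilipschitz_of_bound
    intro h
    rw [Real.coe_toNNReal _ (by positivity)]
    rw [inv_mul_eq_div, le_div_iff₀ hc, mul_comm]
    exact hlo h
  have hclosed : IsClosed (Set.range T) := hanti.isClosed_range T.uniformContinuous
  have hsurj : Function.Surjective T := by
    intro k
    have := mem_closure_range hbij.2 hc hlow hT k
    rw [hclosed.closure_eq] at this
    exact this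
  set e0 : X ≃ₗ[ℝ] Y := LinearEquiv.ofBijective T.toLinearMap ⟨hinj, hsurj⟩ with he0
  have he0T : ∀ h, e0 h = T h := fun h => rfl
  refine ⟨e0.toContinuousLinearEquivOfBounds C c⁻¹ (fun h => by rw [he0T]; exact hupT h) ?_,
    fun h => rfl, fun h => ⟨hlo h, hupT h⟩⟩
  intro y
  have := hlo (e0.symm y)
  rw [← he0T, LinearEquiv.apply_symm_apply] at this
  rw [inv_mul_eq_div, le_div_iff₀ hc, mul_comm]
  exact this


/-- the scaled point used for the almost differentiable case -/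
theorem scaled {f : X → Y} {x0 : X} {T : X →L[ℝ] Y} {ε δ : ℝ} (hδ : 0 < δ)
    (hE : ∀ x, ‖x - x0‖ < δ → ‖f x - f x0 - T (x - x0)‖ ≤ ε * ‖x - x0‖) {h : X} (hh : h ≠ 0) :
    ∃ t : ℝ, 0 < t ∧ ‖f (x0 + t • h) - f x0 - t • T h‖ ≤ ε * (t * ‖h‖) := by
  have hn : 0 < ‖h‖ := norm_pos_iff.2 hh
  refine ⟨δ / (2 * ‖h‖), by positivity, ?_⟩
  set t : ℝ := δ / (2 * ‖h‖) with ht
  have htpos : 0 < t := by positivity
  have hx : (x0 + t • h) - x0 = t • h := by abel
  have hnorm : ‖t • h‖ = t * ‖h‖ := by rw [norm_smul, Real.norm_of_nonneg htpos.le]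
  have hlt : ‖(x0 + t • h) - x0‖ < δ := by
    rw [hx, hnorm, ht]
    have : δ / (2 * ‖h‖) * ‖h‖ = δ / 2 := by field_simp
    rw [this]; linarith
  have h1 := hE _ hlt
  rw [hx, hnorm, map_smul] at h1
  exact h1

theorem almost_case [CompleteSpace X] (f : X → Y) (hbij : Function.Bijective f) (c C : ℝ)
    (hlow : ∀ x x', c * ‖x - x'‖ ≤ ‖f x - f x'‖) (hup : ∀ x x', ‖f x - f x'‖ ≤ C * ‖x - x'‖)
    (x0 : X) (T : X →L[ℝ] Y) (ε δ : ℝ) (hε0 : 0 ≤ ε) (hε : ε < c) (hδ : 0 < δ)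
    (hE : ∀ x, ‖x - x0‖ < δ → ‖f x - f x0 - T (x - x0)‖ ≤ ε * ‖x - x0‖) :
    ∃ e : X ≃L[ℝ] Y, (∀ h, e h = T h) ∧
      ∀ h, (c - ε) * ‖h‖ ≤ ‖e h‖ ∧ ‖e h‖ ≤ (C + ε) * ‖h‖ := by
  have hc : 0 < c := lt_of_le_of_lt hε0 hε
  have hce : 0 < c - ε := by linarith
  have hlo : ∀ h, (c - ε) * ‖h‖ ≤ ‖T h‖ := by
    intro h
    by_cases hh : h = 0
    · simp [hh]
    obtain ⟨t, htpos, h1⟩ := scaled hδ hE hh
    have h2 := hlow (x0 + t • h) x0
    have hx : (x0 + t • h) - x0 = t • h := by abel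
    have hnorm : ‖t • h‖ = t * ‖h‖ := by rw [norm_smul, Real.norm_of_nonneg htpos.le]
    rw [hx, hnorm] at h2
    have h3 : ‖f (x0 + t • h) - f x0‖ ≤ ‖f (x0 + t • h) - f x0 - t • T h‖ + ‖t • T h‖ := by
      have := norm_add_le (f (x0 + t • h) - f x0 - t • T h) (t • T h)
      simpa using this
    have h4 : ‖t • T h‖ = t * ‖T h‖ := by rw [norm_smul, Real.norm_of_nonneg htpos.le]
    rw [h4] at h3
    have h6 : t * ((c - ε) * ‖h‖) ≤ t * ‖T h‖ := by nlinarith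
    exact le_of_mul_le_mul_left h6 htpos
  have hupT : ∀ h, ‖T h‖ ≤ (C + ε) * ‖h‖ := by
    intro h
    by_cases hh : h = 0
    · simp [hh]
    obtain ⟨t, htpos, h1⟩ := scaled hδ hE hh
    have h2 := hup (x0 + t • h) x0
    have hx : (x0 + t • h) - x0 = t • h := by abel
    have hnorm : ‖t • h‖ = t * ‖h‖ := by rw [norm_smul, Real.norm_of_nonneg htpos.le]
    rw [hx, hnorm] at h2
    have h3 : ‖t • T h‖ ≤ ‖f (x0 + t • h) - f x0 - t • T h‖ + ‖f (x0 + t • h) - f x0‖ := by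
      have := norm_sub_le (f (x0 + t • h) - f x0) (f (x0 + t • h) - f x0 - t • T h)
      have h8 : f (x0 + t • h) - f x0 - (f (x0 + t • h) - f x0 - t • T h) = t • T h := by abel
      rw [h8] at this
      linarith
    have h4 : ‖t • T h‖ = t * ‖T h‖ := by rw [norm_smul, Real.norm_of_nonneg htpos.le]
    rw [h4] at h3
    have h6 : t * ‖T h‖ ≤ t * ((C + ε) * ‖h‖) := by nlinarith
    exact le_of_mul_le_mul_left h6 htpos
  have hinj : Function.Injective T := by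
    rw [injective_iff_map_eq_zero]
    intro h hh
    have := hlo h
    rw [hh, norm_zero] at this
    have h2 : ‖h‖ ≤ 0 := by
      by_contra hcon
      push Not at hcon
      nlinarith
    exact norm_le_zero_iff.1 h2
  have hanti : AntilipschitzWith (Real.toNNReal (c - ε)⁻¹) T := by
    apply ContinuousLinearMap.antilipschitz_of_bound
    intro h
    rw [Real.coe_toNNReal _ (by positivity)]
    rw [inv_mul_eq_div, le_div_iff₀ hce, mul_comm]
    exact hlo h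
  have hclosed : IsClosed (Set.range T) := hanti.isClosed_range T.uniformContinuous
  -- every `k` is approximated by the range up to `(ε / c) ‖k‖`
  have happrox : ∀ k : Y, ∃ g : X, ‖k - T g‖ ≤ ε / c * ‖k‖ := by
    intro k
    by_cases hk : k = 0
    · exact ⟨0, by simp [hk]⟩
    have hn : 0 < ‖k‖ := norm_pos_iff.2 hk
    set t : ℝ := δ * c / (2 * ‖k‖) with ht
    have htpos : 0 < t := by positivity
    obtain ⟨x, hx⟩ := hbij.2 (f x0 + t • k)
    have hfx : f x - f x0 = t • k := by rw [hx]; abel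
    have hnorm : ‖t • k‖ = t * ‖k‖ := by rw [norm_smul, Real.norm_of_nonneg htpos.le]
    have h1 := hlow x x0
    rw [hfx, hnorm] at h1
    have h2 : ‖x - x0‖ ≤ t * ‖k‖ / c := by rw [le_div_iff₀ hc]; linarith
    have h3 : t * ‖k‖ / c = δ / 2 := by rw [ht]; field_simp
    have hlt : ‖x - x0‖ < δ := by rw [h3] at h2; linarith
    have h4 := hE x hlt
    rw [hfx] at h4
    refine ⟨t⁻¹ • (x - x0), ?_⟩
    rw [map_smul]
    have h5 : k - t⁻¹ • T (x - x0) = t⁻¹ • (t • k - T (x - x0)) := by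
      rw [smul_sub, smul_smul, inv_mul_cancel₀ htpos.ne', one_smul]
    rw [h5, norm_smul, norm_inv, Real.norm_of_nonneg htpos.le]
    have h6 : ‖t • k - T (x - x0)‖ ≤ ε * (t * ‖k‖ / c) :=
      h4.trans (mul_le_mul_of_nonneg_left h2 hε0)
    have h7 : ε * (t * ‖k‖ / c) = t * (ε / c * ‖k‖) := by field_simp
    rw [h7] at h6
    calc t⁻¹ * ‖t • k - T (x - x0)‖ ≤ t⁻¹ * (t * (ε / c * ‖k‖)) :=
          mul_le_mul_of_nonneg_left h6 (by positivity)
      _ = ε / c * ‖k‖ := by field_simp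
  have hsurj : Function.Surjective T := by
    by_contra hns
    have hθ : ε / c < 1 := by rw [div_lt_one hc]; exact hε
    set F : Subspace ℝ Y := LinearMap.range T.toLinearMap with hF
    have hFc : IsClosed (F : Set Y) := by
      have : (F : Set Y) = Set.range T := by
        ext y; simp [hF]
      rw [this]; exact hclosed
    have hFne : ∃ y : Y, y ∉ F := by
      by_contra hall
      push Not at hall
      apply hns
      intro y
      obtain ⟨g, hg⟩ := hall y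
      exact ⟨g, hg⟩
    obtain ⟨k, hkF, hk⟩ := riesz_lemma hFc hFne (r := (1 + ε / c) / 2) (by linarith)
    obtain ⟨g, hg⟩ := happrox k
    have h1 := hk (T g) ⟨g, rfl⟩
    have hk0 : 0 < ‖k‖ := by
      rw [norm_pos_iff]
      rintro rfl
      exact hkF F.zero_mem
    nlinarith
  set e0 : X ≃ₗ[ℝ] Y := LinearEquiv.ofBijective T.toLinearMap ⟨hinj, hsurj⟩ with he0
  have he0T : ∀ h, e0 h = T h := fun h => rfl
  refine ⟨e0.toContinuousLinearEquivOfBounds (C + ε) (c - ε)⁻¹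
    (fun h => by rw [he0T]; exact hupT h) ?_, fun h => rfl, fun h => ⟨hlo h, hupT h⟩⟩
  intro y
  have := hlo (e0.symm y)
  rw [← he0T, LinearEquiv.apply_symm_apply] at this
  rw [inv_mul_eq_div, le_div_iff₀ hce, mul_comm]
  exact this

theorem result [CompleteSpace X] (f : X → Y) (hbij : Function.Bijective f) (c C : ℝ) (hc : 0 < c)
    (hlow : ∀ x x', c * ‖x - x'‖ ≤ ‖f x - f x'‖) (hup : ∀ x x', ‖f x - f x'‖ ≤ C * ‖x - x'‖)
    (x0 : X) (T : X →L[ℝ] Y) :
    -- (1) almost Frechet differentiability at one point, with a defect smaller than `c`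
    (∀ ε δ : ℝ, 0 ≤ ε → ε < c → 0 < δ →
      (∀ x, ‖x - x0‖ < δ → ‖f x - f x0 - T (x - x0)‖ ≤ ε * ‖x - x0‖) →
      ∃ e : X ≃L[ℝ] Y, (∀ h, e h = T h) ∧
        ∀ h, (c - ε) * ‖h‖ ≤ ‖e h‖ ∧ ‖e h‖ ≤ (C + ε) * ‖h‖) ∧
    -- (2) Frechet differentiability at one point
    (HasFDerivAt f T x0 →
      ∃ e : X ≃L[ℝ] Y, (∀ h, e h = T h) ∧ ∀ h, c * ‖h‖ ≤ ‖e h‖ ∧ ‖e h‖ ≤ C * ‖h‖) :=
  ⟨fun ε δ h0 h1 hδ hE => almost_case f hbij c C hlow hup x0 T ε δ h0 h1 hδ hE,
    fun hT => frechet_case f hbij c C hc hlow hup x0 T hT⟩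

end Vale.Agent.Results.P124.DifferentiabilityPoint
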