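import Mathlib

/-!
# P124: a Lipschitz isomorphism that is Frechet differentiable at one point

Let `f : X → Y` be a bijection of real Banach spaces with
`c ‖x - x'‖ ≤ ‖f x - f x'‖` for some `c > 0` (no upper Lipschitz bound is needed).
If `f` is Frechet differentiable at a single point `x₀`, with derivative `T`, then
`c ‖h‖ ≤ ‖T h‖` for all `h` and `T` is a linear isomorphism of `X` onto `Y`.

Second part: for any map `f : X → Y` of real normed spaces with the same lower bound, if all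
directional derivatives at one point `x₀` exist and are given by a bounded linear map `T`
(Gateaux differentiability), then `c ‖h‖ ≤ ‖T h‖`, so `T` is a linear isomorphic embedding.

Third part (quantitative form of the first): it is enough that some bounded linear `T` satisfies
`‖f (x₀ + h) - f x₀ - T h‖ ≤ ε ‖h‖` for all `‖h‖ < δ`, with one `ε < c` and one `δ > 0`.
-/

namespace Vale.Agent.Results.P124.OnePointDerivative

variable {X Y : Type} [NormedAddCommGroup X] [NormedSpace ℝ X]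
  [NormedAddCommGroup Y] [NormedSpace ℝ Y]

theorem approx {f : X → Y} {x₀ : X} {T : X →L[ℝ] Y} (hT : HasFDerivAt f T x₀) {ε : ℝ}
    (hε : 0 < ε) : ∃ δ > 0, ∀ h : X, ‖h‖ < δ → ‖f (x₀ + h) - f x₀ - T h‖ ≤ ε * ‖h‖ := by
  have h1 := hT.isLittleO.def hε
  obtain ⟨δ, hδ, H⟩ := Metric.eventually_nhds_iff.1 h1
  refine ⟨δ, hδ, fun h hh => ?_⟩
  have := @H (x₀ + h) (by simpa [dist_eq_norm] using hh)
  simpa using this

theorem lower {f : X → Y} {c : ℝ} (hlow : ∀ x x', c * ‖x - x'‖ ≤ ‖f x - f x'‖)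
    {x₀ : X} {T : X →L[ℝ] Y} (hT : HasFDerivAt f T x₀) (h : X) : c * ‖h‖ ≤ ‖T h‖ := by
  rcases eq_or_ne h 0 with rfl | hh
  · simp
  have hn : 0 < ‖h‖ := norm_pos_iff.2 hh
  have key : ∀ ε : ℝ, 0 < ε → c * ‖h‖ ≤ ‖T h‖ + ε := by
    intro ε hε
    obtain ⟨δ, hδ, H⟩ := approx hT (div_pos hε hn)
    set t : ℝ := δ / (2 * ‖h‖) with ht
    have htpos : 0 < t := by positivity
    have hnorm : ‖t • h‖ = t * ‖h‖ := by rw [norm_smul, Real.norm_of_nonneg htpos.le]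
    have hsmall : ‖t • h‖ < δ := by
      rw [hnorm, ht]
      field_simp
      linarith
    have h1 := H (t • h) hsmall
    have h2 := hlow (x₀ + t • h) x₀
    rw [add_sub_cancel_left, hnorm] at h2
    have h3 : ‖f (x₀ + t • h) - f x₀‖ ≤ ‖f (x₀ + t • h) - f x₀ - T (t • h)‖ + ‖T (t • h)‖ := by
      have := norm_add_le (f (x₀ + t • h) - f x₀ - T (t • h)) (T (t • h))
      simpa using this
    have h4 : ‖T (t • h)‖ = t * ‖T h‖ := by
      rw [map_smul, norm_smul, Real.norm_of_nonneg htpos.le]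
    rw [hnorm] at h1
    have h5 : ε / ‖h‖ * (t * ‖h‖) = t * ε := by field_simp
    have h6 : t * (c * ‖h‖) ≤ t * (‖T h‖ + ε) := by nlinarith
    exact le_of_mul_le_mul_left h6 htpos
  exact le_of_forall_pos_le_add key

theorem frechet [CompleteSpace X] [CompleteSpace Y] (f : X ≃ Y) (c : ℝ) (hc : 0 < c)
    (hlow : ∀ x x', c * ‖x - x'‖ ≤ ‖f x - f x'‖)
    (x₀ : X) (T : X →L[ℝ] Y) (hT : HasFDerivAt f T x₀) :
    (∀ h, c * ‖h‖ ≤ ‖T h‖) ∧ ∃ e : X ≃L[ℝ] Y, ∀ h, e h = T h := by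
  have hl : ∀ h, c * ‖h‖ ≤ ‖T h‖ := lower hlow hT
  refine ⟨hl, ?_⟩
  have hker : LinearMap.ker (T : X →ₗ[ℝ] Y) = ⊥ := by
    rw [LinearMap.ker_eq_bot']
    intro h hh
    have := hl h
    have h0 : T h = 0 := hh
    rw [h0, norm_zero] at this
    have : ‖h‖ ≤ 0 := by nlinarith [norm_nonneg h]
    exact norm_le_zero_iff.1 this
  have hanti : AntilipschitzWith (Real.toNNReal c⁻¹) T := by
    apply AddMonoidHomClass.antilipschitz_of_bound
    intro x
    rw [Real.coe_toNNReal _ (inv_nonneg.2 hc.le)]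
    have := hl x
    rw [inv_mul_eq_div, le_div_iff₀ hc]
    linarith
  have hclosed : IsClosed (Set.range T) := hanti.isClosed_range T.uniformContinuous
  have hrange : LinearMap.range (T : X →ₗ[ℝ] Y) = ⊤ := by
    by_contra hne
    have hex : ∃ y, y ∉ LinearMap.range (T : X →ₗ[ℝ] Y) := by
      by_contra hcon
      push Not at hcon
      exact hne (eq_top_iff.2 fun y _ => hcon y)
    have hcl : IsClosed ((LinearMap.range (T : X →ₗ[ℝ] Y) : Submodule ℝ Y) : Set Y) := by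
      rw [LinearMap.coe_range]
      exact hclosed
    obtain ⟨y₀, hy₀, hR⟩ := riesz_lemma hcl hex (show (1 / 2 : ℝ) < 1 by norm_num)
    have hy0 : y₀ ≠ 0 := fun h => hy₀ (h ▸ Submodule.zero_mem _)
    have hyn : 0 < ‖y₀‖ := norm_pos_iff.2 hy0
    obtain ⟨δ, hδ, H⟩ := approx hT (show 0 < c / 4 by positivity)
    set t : ℝ := δ * c / (2 * ‖y₀‖) with ht
    have htpos : 0 < t := by positivity
    set h : X := f.symm (f x₀ + t • y₀) - x₀ with hh
    have hfx : f (x₀ + h) = f x₀ + t • y₀ := by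
      rw [hh, add_sub_cancel, Equiv.apply_symm_apply]
    have h1 : c * ‖h‖ ≤ t * ‖y₀‖ := by
      have := hlow (x₀ + h) x₀
      rw [hfx, add_sub_cancel_left, add_sub_cancel_left, norm_smul,
        Real.norm_of_nonneg htpos.le] at this
      exact this
    have h2 : ‖h‖ < δ := by
      have e1 : t * ‖y₀‖ = δ * c / 2 := by rw [ht]; field_simp
      rw [e1] at h1
      nlinarith
    have h3 := H h h2
    rw [hfx, add_sub_cancel_left] at h3
    have h4 := hR (T (t⁻¹ • h)) ⟨t⁻¹ • h, rfl⟩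
    have h5 : t • y₀ - T h = t • (y₀ - T (t⁻¹ • h)) := by
      rw [map_smul, smul_sub, smul_smul, mul_inv_cancel₀ htpos.ne', one_smul]
    rw [h5, norm_smul, Real.norm_of_nonneg htpos.le] at h3
    have h6 : t * (1 / 2 * ‖y₀‖) ≤ c / 4 * ‖h‖ :=
      le_trans (mul_le_mul_of_nonneg_left h4 htpos.le) h3
    nlinarith [mul_pos htpos hyn]
  exact ⟨ContinuousLinearEquiv.ofBijective T hker hrange, fun h => by simp⟩

theorem gateaux (f : X → Y) (c : ℝ) (hlow : ∀ x x', c * ‖x - x'‖ ≤ ‖f x - f x'‖)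
    (x₀ : X) (T : X →L[ℝ] Y) (hT : ∀ h, HasLineDerivAt ℝ f (T h) x₀ h) (h : X) :
    c * ‖h‖ ≤ ‖T h‖ := by
  have hg : HasDerivAt (fun t : ℝ => f (x₀ + t • h)) (T h) 0 := hT h
  have hlow' : ∀ t t' : ℝ, (c * ‖h‖) * ‖t - t'‖
      ≤ ‖(fun t : ℝ => f (x₀ + t • h)) t - (fun t : ℝ => f (x₀ + t • h)) t'‖ := by
    intro t t'
    have := hlow (x₀ + t • h) (x₀ + t' • h)
    rw [add_sub_add_left_eq_sub, ← sub_smul, norm_smul] at this
    calc (c * ‖h‖) * ‖t - t'‖ = c * (‖t - t'‖ * ‖h‖) := by ring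
      _ ≤ _ := this
  have := lower hlow' hg.hasFDerivAt (1 : ℝ)
  simpa using this

theorem almostLower {f : X → Y} {c ε δ : ℝ} (hδ : 0 < δ)
    (hlow : ∀ x x', c * ‖x - x'‖ ≤ ‖f x - f x'‖) {x₀ : X} {T : X →L[ℝ] Y}
    (H : ∀ h : X, ‖h‖ < δ → ‖f (x₀ + h) - f x₀ - T h‖ ≤ ε * ‖h‖) (h : X) :
    (c - ε) * ‖h‖ ≤ ‖T h‖ := by
  rcases eq_or_ne h 0 with rfl | hh
  · simp
  have hn : 0 < ‖h‖ := norm_pos_iff.2 hh
  set t : ℝ := δ / (2 * ‖h‖) with ht
  have htpos : 0 < t := by positivity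
  have hnorm : ‖t • h‖ = t * ‖h‖ := by rw [norm_smul, Real.norm_of_nonneg htpos.le]
  have hsmall : ‖t • h‖ < δ := by
    rw [hnorm, ht]
    field_simp
    linarith
  have h1 := H (t • h) hsmall
  have h2 := hlow (x₀ + t • h) x₀
  rw [add_sub_cancel_left, hnorm] at h2
  have h3 : ‖f (x₀ + t • h) - f x₀‖ ≤ ‖f (x₀ + t • h) - f x₀ - T (t • h)‖ + ‖T (t • h)‖ := by
    have := norm_add_le (f (x₀ + t • h) - f x₀ - T (t • h)) (T (t • h))
    simpa using this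
  have h4 : ‖T (t • h)‖ = t * ‖T h‖ := by
    rw [map_smul, norm_smul, Real.norm_of_nonneg htpos.le]
  rw [hnorm] at h1
  have h6 : t * ((c - ε) * ‖h‖) ≤ t * ‖T h‖ := by nlinarith
  exact le_of_mul_le_mul_left h6 htpos

theorem almost [CompleteSpace X] [CompleteSpace Y] (f : X ≃ Y) (c ε δ : ℝ) (hε : 0 ≤ ε)
    (hεc : ε < c) (hδ : 0 < δ) (hlow : ∀ x x', c * ‖x - x'‖ ≤ ‖f x - f x'‖)
    (x₀ : X) (T : X →L[ℝ] Y)
    (H : ∀ h : X, ‖h‖ < δ → ‖f (x₀ + h) - f x₀ - T h‖ ≤ ε * ‖h‖) :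
    (∀ h, (c - ε) * ‖h‖ ≤ ‖T h‖) ∧ ∃ e : X ≃L[ℝ] Y, ∀ h, e h = T h := by
  have hc : 0 < c := lt_of_le_of_lt hε hεc
  have hc' : 0 < c - ε := sub_pos.2 hεc
  have hl : ∀ h, (c - ε) * ‖h‖ ≤ ‖T h‖ := almostLower hδ hlow H
  refine ⟨hl, ?_⟩
  have hker : LinearMap.ker (T : X →ₗ[ℝ] Y) = ⊥ := by
    rw [LinearMap.ker_eq_bot']
    intro h hh
    have := hl h
    have h0 : T h = 0 := hh
    rw [h0, norm_zero] at this
    have : ‖h‖ ≤ 0 := by nlinarith [norm_nonneg h]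
    exact norm_le_zero_iff.1 this
  have hanti : AntilipschitzWith (Real.toNNReal (c - ε)⁻¹) T := by
    apply AddMonoidHomClass.antilipschitz_of_bound
    intro x
    rw [Real.coe_toNNReal _ (inv_nonneg.2 hc'.le)]
    have := hl x
    rw [inv_mul_eq_div, le_div_iff₀ hc']
    linarith
  have hclosed : IsClosed (Set.range T) := hanti.isClosed_range T.uniformContinuous
  have hrange : LinearMap.range (T : X →ₗ[ℝ] Y) = ⊤ := by
    by_contra hne
    have hex : ∃ y, y ∉ LinearMap.range (T : X →ₗ[ℝ] Y) := by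
      by_contra hcon
      push Not at hcon
      exact hne (eq_top_iff.2 fun y _ => hcon y)
    have hcl : IsClosed ((LinearMap.range (T : X →ₗ[ℝ] Y) : Submodule ℝ Y) : Set Y) := by
      rw [LinearMap.coe_range]
      exact hclosed
    have hq : ε / c < 1 := (div_lt_one hc).2 hεc
    obtain ⟨y₀, hy₀, hR⟩ := riesz_lemma hcl hex (show (ε / c + 1) / 2 < 1 by linarith)
    have hy0 : y₀ ≠ 0 := fun h => hy₀ (h ▸ Submodule.zero_mem _)
    have hyn : 0 < ‖y₀‖ := norm_pos_iff.2 hy0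
    set t : ℝ := δ * c / (2 * ‖y₀‖) with ht
    have htpos : 0 < t := by positivity
    set h : X := f.symm (f x₀ + t • y₀) - x₀ with hh
    have hfx : f (x₀ + h) = f x₀ + t • y₀ := by
      rw [hh, add_sub_cancel, Equiv.apply_symm_apply]
    have h1 : c * ‖h‖ ≤ t * ‖y₀‖ := by
      have := hlow (x₀ + h) x₀
      rw [hfx, add_sub_cancel_left, add_sub_cancel_left, norm_smul,
        Real.norm_of_nonneg htpos.le] at this
      exact this
    have h2 : ‖h‖ < δ := by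
      have e1 : t * ‖y₀‖ = δ * c / 2 := by rw [ht]; field_simp
      rw [e1] at h1
      nlinarith
    have h3 := H h h2
    rw [hfx, add_sub_cancel_left] at h3
    have h4 := hR (T (t⁻¹ • h)) ⟨t⁻¹ • h, rfl⟩
    have h5 : t • y₀ - T h = t • (y₀ - T (t⁻¹ • h)) := by
      rw [map_smul, smul_sub, smul_smul, mul_inv_cancel₀ htpos.ne', one_smul]
    rw [h5, norm_smul, Real.norm_of_nonneg htpos.le] at h3
    have h6 : t * ((ε / c + 1) / 2 * ‖y₀‖) ≤ ε * ‖h‖ :=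
      le_trans (mul_le_mul_of_nonneg_left h4 htpos.le) h3
    have h7 : ε * ‖h‖ ≤ ε / c * (t * ‖y₀‖) := by
      have : ‖h‖ ≤ t * ‖y₀‖ / c := by rw [le_div_iff₀ hc]; linarith
      calc ε * ‖h‖ ≤ ε * (t * ‖y₀‖ / c) := mul_le_mul_of_nonneg_left this hε
        _ = ε / c * (t * ‖y₀‖) := by ring
    have h8 : 0 < t * ‖y₀‖ := mul_pos htpos hyn
    nlinarith
  exact ⟨ContinuousLinearEquiv.ofBijective T hker hrange, fun h => by simp⟩

theorem result :
    (∀ (X Y : Type) [NormedAddCommGroup X] [NormedSpace ℝ X] [NormedAddCommGroup Y]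
      [NormedSpace ℝ Y] [CompleteSpace X] [CompleteSpace Y] (f : X ≃ Y) (c : ℝ), 0 < c →
      (∀ x x', c * ‖x - x'‖ ≤ ‖f x - f x'‖) →
      ∀ (x₀ : X) (T : X →L[ℝ] Y), HasFDerivAt f T x₀ →
        (∀ h, c * ‖h‖ ≤ ‖T h‖) ∧ ∃ e : X ≃L[ℝ] Y, ∀ h, e h = T h) ∧
    (∀ (X Y : Type) [NormedAddCommGroup X] [NormedSpace ℝ X] [NormedAddCommGroup Y]
      [NormedSpace ℝ Y] (f : X → Y) (c : ℝ),
      (∀ x x', c * ‖x - x'‖ ≤ ‖f x - f x'‖) →
      ∀ (x₀ : X) (T : X →L[ℝ] Y), (∀ h, HasLineDerivAt ℝ f (T h) x₀ h) →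
        ∀ h, c * ‖h‖ ≤ ‖T h‖) ∧
    (∀ (X Y : Type) [NormedAddCommGroup X] [NormedSpace ℝ X] [NormedAddCommGroup Y]
      [NormedSpace ℝ Y] [CompleteSpace X] [CompleteSpace Y] (f : X ≃ Y) (c ε δ : ℝ),
      0 ≤ ε → ε < c → 0 < δ → (∀ x x', c * ‖x - x'‖ ≤ ‖f x - f x'‖) →
      ∀ (x₀ : X) (T : X →L[ℝ] Y),
        (∀ h : X, ‖h‖ < δ → ‖f (x₀ + h) - f x₀ - T h‖ ≤ ε * ‖h‖) →
        (∀ h, (c - ε) * ‖h‖ ≤ ‖T h‖) ∧ ∃ e : X ≃L[ℝ] Y, ∀ h, e h = T h) :=
  ⟨fun _ _ _ _ _ _ _ _ f c hc hlow x₀ T hT => frechet f c hc hlow x₀ T hT,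
    fun _ _ _ _ _ _ f c hlow x₀ T hT h => gateaux f c hlow x₀ T hT h,
    fun _ _ _ _ _ _ _ _ f c ε δ hε hεc hδ hlow x₀ T H => almost f c ε δ hε hεc hδ hlow x₀ T H⟩

end Vale.Agent.Results.P124.OnePointDerivative
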